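import Crest.Agent.R189.C.Rig

/-!
# Row 189, block B3 (owner helper95): generalised 3-cycles in a `Rig`, the kernel is central
-/

set_option autoImplicit false

noncomputable section

namespace Crest.Agent.R189

open Equiv Pointwise C Filter Topology

variable {G X : Type*} [AddCommGroup G] [AddAction G X] [TopologicalSpace X] {n : ℕ} {Γ : Type*} [Group Γ]
  (R : Rig G X n Γ)

namespace Rig

theorem τ_zero : R.τ 0 = 1 := by
  have := R.τ_add 0 0 (by simp) (by simp)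
  rw [add_zero] at this
  exact left_eq_mul.1 this

theorem τ_neg {t : Fin n → G} (ht : ∑ i, t i = 0) : R.τ (-t) = (R.τ t)⁻¹ := by
  rw [eq_inv_iff_mul_eq_one, ← R.τ_add _ _ (by simp [ht]) ht, neg_add_cancel, τ_zero]

theorem φ_empty {c : Perm (Fin n)} (hc : c.IsThreeCycle) : R.φ ∅ c = 1 := by
  have := R.add ∅ ∅ c isClopen_empty isClopen_empty (by simp) hc
  rw [Set.union_empty] at this
  exact left_eq_mul.1 this

/-- 3-cycles on disjoint sets of levels commute -/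
theorem conj_fix {U V : Set X} (hU : IsClopen U) (hV : IsClopen V) {c d : Perm (Fin n)} (hc : c.IsThreeCycle)
    (hd : d.IsThreeCycle) (h : d * c * d⁻¹ = c) : R.φ V d * R.φ U c * (R.φ V d)⁻¹ = R.φ U c := by
  have h1 := R.conj _ V c d (hU.inter hV) hV Set.inter_subset_right hc hd
  have h2 := R.orth _ V c d (hU.diff hV) hV Set.disjoint_sdiff_left hc hd
  rw [h] at h1
  rw [← Set.inter_union_sdiff U V, R.add _ _ c (hU.inter hV) (hU.diff hV)
    (Set.disjoint_sdiff_right.mono_left Set.inter_subset_right) hc]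
  calc _ = R.φ V d * R.φ (U ∩ V) c * (R.φ V d)⁻¹ * (R.φ V d * R.φ (U \ V) c * (R.φ V d)⁻¹) := by group
    _ = _ := by rw [h1, ← h2.eq, mul_inv_cancel_right]

/-- three different levels -/
def D3 (p q r : G × Fin n) : Prop := p.2 ≠ q.2 ∧ p.2 ≠ r.2 ∧ q.2 ≠ r.2

open Classical in
/-- the 3-cycle over `U` with pieces at the sites `p q r` on three different levels -/
def ψ (U : Set X) (p q r : G × Fin n) : Γ :=
  if h : ∃ t : Fin n → G, ∑ i, t i = 0 ∧ t p.2 = p.1 ∧ t q.2 = q.1 ∧ t r.2 = r.1 then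
    R.τ h.choose * R.φ U (cy p.2 q.2 r.2) * (R.τ h.choose)⁻¹ else 1

theorem ψ_eq {U : Set X} (hU : IsClopen U) {p q r : G × Fin n} (h : D3 p q r) {t : Fin n → G} (ht : ∑ i, t i = 0)
    (hp : t p.2 = p.1) (hq : t q.2 = q.1) (hr : t r.2 = r.1) :
    R.ψ U p q r = R.τ t * R.φ U (cy p.2 q.2 r.2) * (R.τ t)⁻¹ := by
  have hex : ∃ t : Fin n → G, ∑ i, t i = 0 ∧ t p.2 = p.1 ∧ t q.2 = q.1 ∧ t r.2 = r.1 := ⟨t, ht, hp, hq, hr⟩
  rw [ψ, dif_pos hex]
  obtain ⟨h0, h1, h2, h3⟩ := hex.choose_spec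
  set s := hex.choose
  have hs : ∑ i, (s - t) i = 0 := by simp [Finset.sum_sub_distrib, h0, ht]
  have := R.trans U _ (s - t) 0 hU (cy_three h.1 h.2.1 h.2.2) hs fun i hi => by
    rcases cy_supp hi with rfl | rfl | rfl <;> simp [*]
  rw [zero_vadd] at this
  rw [show s = t + (s - t) by abel, R.τ_add _ _ ht hs]
  conv_rhs => rw [← this]
  group

theorem exists_t3 (hn : 9 ≤ n) {p q r : G × Fin n} (h : D3 p q r) (F : Finset (Fin n)) (hF : F.card ≤ 5)
    (hp : p.2 ∉ F) (hq : q.2 ∉ F) :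
    ∃ t : Fin n → G, ∑ i, t i = 0 ∧ t p.2 = p.1 ∧ t q.2 = q.1 ∧ t r.2 = r.1 ∧ ∀ i ∈ F, t i = r.1 := by
  obtain ⟨t, h0, h1⟩ := exists_t (G := G) (insert p.2 (insert q.2 (insert r.2 F)))
    (lt_of_le_of_lt ((Finset.card_insert_le _ _).trans (Nat.succ_le_succ ((Finset.card_insert_le _ _).trans
      (Nat.succ_le_succ (Finset.card_insert_le _ _))))) (by omega))
    fun i => if i = p.2 then p.1 else if i = q.2 then q.1 else r.1
  refine ⟨t, h0, by simpa using h1 p.2, by simpa [h.1.symm] using h1 q.2,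
    by simpa [h.2.1.symm, h.2.2.symm] using h1 r.2, fun i hi => ?_⟩
  have a1 : i ≠ p.2 := fun e => hp (e ▸ hi)
  have a2 : i ≠ q.2 := fun e => hq (e ▸ hi)
  simpa [a1, a2, hi] using h1 i

theorem ψ_union (hn : 9 ≤ n) {U V : Set X} (hU : IsClopen U) (hV : IsClopen V) (hUV : Disjoint U V)
    {p q r : G × Fin n} (h : D3 p q r) : R.ψ (U ∪ V) p q r = R.ψ U p q r * R.ψ V p q r := by
  obtain ⟨t, h0, h1, h2, h3, -⟩ := exists_t3 hn h ∅ (by simp) (by simp) (by simp)
  rw [R.ψ_eq (hU.union hV) h h0 h1 h2 h3, R.ψ_eq hU h h0 h1 h2 h3, R.ψ_eq hV h h0 h1 h2 h3,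
    R.add _ _ _ hU hV hUV (cy_three h.1 h.2.1 h.2.2)]
  group

theorem ψ_empty (hn : 9 ≤ n) {p q r : G × Fin n} (h : D3 p q r) : R.ψ ∅ p q r = 1 := by
  have := R.ψ_union hn isClopen_empty isClopen_empty (by simp) h
  rw [Set.union_empty] at this
  exact left_eq_mul.1 this

/-- the action of a level translation on the sites -/
def sh (t : Fin n → G) (p : G × Fin n) : G × Fin n := (t p.2 + p.1, p.2)

theorem τ_ψ (hn : 9 ≤ n) {U : Set X} (hU : IsClopen U) {p q r : G × Fin n} (h : D3 p q r) {t : Fin n → G}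
    (ht : ∑ i, t i = 0) : R.τ t * R.ψ U p q r * (R.τ t)⁻¹ = R.ψ U (sh t p) (sh t q) (sh t r) := by
  obtain ⟨s, h0, h1, h2, h3, -⟩ := exists_t3 hn h ∅ (by simp) (by simp) (by simp)
  rw [R.ψ_eq hU h h0 h1 h2 h3, R.ψ_eq hU (p := sh t p) (q := sh t q) (r := sh t r) h (t := t + s)
    (by simp [Finset.sum_add_distrib, h0, ht]) (by simp [sh, h1]) (by simp [sh, h2]) (by simp [sh, h3]),
    R.τ_add _ _ ht h0]
  simp only [sh]; group

/-- the 3-cycle `d` over `V` moves the piece over `U` at the site `r` to the piece at the site `r'` -/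
def Mv (V : Set X) (d : Perm (Fin n)) (U : Set X) (r r' : G × Fin n) : Prop :=
  (r.1 +ᵥ U ⊆ V ∧ r' = (r.1, d r.2)) ∨ ((Disjoint (r.1 +ᵥ U) V ∨ d r.2 = r.2) ∧ r' = r)

omit [TopologicalSpace X] in
theorem Mv.ne {V U : Set X} {d : Perm (Fin n)} {r r' : G × Fin n} (h : Mv V d U r r') {a : Fin n} (ha : d a = a)
    (hr : a ≠ r.2) : a ≠ r'.2 := by
  rcases h with ⟨-, rfl⟩ | ⟨-, rfl⟩
  · exact fun e => hr (d.injective (ha.trans e))
  · exact hr

variable [ContinuousConstVAdd G X]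

theorem clopen_vadd {V : Set X} (hV : IsClopen V) (v : G) : IsClopen (v +ᵥ V) :=
  ⟨hV.1.vadd v, hV.2.vadd v⟩

theorem φ_ψ (hn : 9 ≤ n) {U V : Set X} (hU : IsClopen U) (hV : IsClopen V) {d : Perm (Fin n)}
    (hd : d.IsThreeCycle) {p q r r' : G × Fin n} (h : D3 p q r) (hp : d p.2 = p.2) (hq : d q.2 = q.2)
    (hr : Mv V d U r r') : R.φ V d * R.ψ U p q r * (R.φ V d)⁻¹ = R.ψ U p q r' := by
  obtain ⟨t, h0, h1, h2, h3, h4⟩ := exists_t3 hn h d.support (by rw [hd.card_support]; norm_num)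
    (by simpa using hp) (by simpa using hq)
  have hW := clopen_vadd hV (-r.1)
  have e := R.trans _ d t r.1 hW hd h0 fun i hi => h4 i (by simpa using hi)
  rw [vadd_neg_vadd] at e
  have hc := cy_three h.1 h.2.1 h.2.2
  have key : ∀ y, R.φ (-r.1 +ᵥ V) d * R.φ U (cy p.2 q.2 r.2) * (R.φ (-r.1 +ᵥ V) d)⁻¹ = y →
      R.φ V d * R.ψ U p q r * (R.φ V d)⁻¹ = R.τ t * y * (R.τ t)⁻¹ := by
    rintro _ rfl
    rw [R.ψ_eq hU h h0 h1 h2 h3, ← e]; group
  rcases hr with ⟨a1, rfl⟩ | ⟨a1 | a1, rfl⟩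
  · have b1 : D3 p q (r.1, d r.2) :=
      ⟨h.1, fun e => h.2.1 (d.injective (hp.trans e)), fun e => h.2.2 (d.injective (hq.trans e))⟩
    have b2 : t (d r.2) = r.1 := by
      by_cases e : d r.2 = r.2
      · rw [e, h3]
      · exact h4 _ (by simpa using e)
    rw [key _ (R.conj U _ _ d hU hW (Set.vadd_set_subset_iff_subset_neg_vadd_set.1 a1) hc hd),
      R.ψ_eq hU b1 h0 h1 h2 b2, conj_cy, hp, hq]
  · have : Disjoint U (-r'.1 +ᵥ V) := by
      rw [← Set.disjoint_vadd_set (a := r'.1), vadd_neg_vadd]; exact a1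
    rw [key _ (by rw [← (R.orth U _ _ d hU hW this hc hd).eq, mul_inv_cancel_right]), R.ψ_eq hU h h0 h1 h2 h3]
  · rw [key _ (R.conj_fix hU hW hc hd (by rw [conj_cy, hp, hq, a1])), R.ψ_eq hU h h0 h1 h2 h3]

/-- a 3-cycle written with two auxiliary pieces -/
def cAB (U : Set X) (A B : G × Fin n) (P : Fin 3 → G × Fin n) : Γ :=
  R.ψ U A B (P 0) * (R.ψ U A B (P 1) * R.ψ U A B (P 2) * (R.ψ U A B (P 1))⁻¹) * (R.ψ U A B (P 0))⁻¹

/-- the auxiliary pieces are on free levels -/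
def Ok (A B : G × Fin n) (P : Fin 3 → G × Fin n) : Prop := ∀ k, D3 A B (P k)

omit [ContinuousConstVAdd G X] in
theorem conj_cAB {U : Set X} {A B A' B' : G × Fin n} {P P' : Fin 3 → G × Fin n} {g : Γ}
    (h : ∀ k, g * R.ψ U A B (P k) * g⁻¹ = R.ψ U A' B' (P' k)) : g * R.cAB U A B P * g⁻¹ = R.cAB U A' B' P' := by
  simp only [cAB, ← h]; group

omit [ContinuousConstVAdd G X] in
theorem cAB_eq_ψ (hn : 9 ≤ n) {U : Set X} (hU : IsClopen U) {A B : G × Fin n} {P : Fin 3 → G × Fin n}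
    (h : Ok A B P) (hP : D3 (P 0) (P 1) (P 2)) : R.cAB U A B P = R.ψ U (P 0) (P 1) (P 2) := by
  obtain ⟨t, h0, h1⟩ := exists_t (G := G) {A.2, B.2, (P 0).2, (P 1).2, (P 2).2}
    (lt_of_le_of_lt Finset.card_le_five (by omega))
    fun i => if i = A.2 then A.1 else if i = B.2 then B.1 else if i = (P 0).2 then (P 0).1 else
      if i = (P 1).2 then (P 1).1 else (P 2).1
  obtain ⟨ab, a0, b0⟩ := h 0
  obtain ⟨-, a1, b1⟩ := h 1
  obtain ⟨-, a2, b2⟩ := h 2
  obtain ⟨c01, c02, c12⟩ := hP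
  have tA : t A.2 = A.1 := by simpa using h1 A.2
  have tB : t B.2 = B.1 := by simpa [ab.symm] using h1 B.2
  have t0 : t (P 0).2 = (P 0).1 := by simpa [a0.symm, b0.symm] using h1 (P 0).2
  have t1 : t (P 1).2 = (P 1).1 := by simpa [a1.symm, b1.symm, c01.symm] using h1 (P 1).2
  have t2 : t (P 2).2 = (P 2).1 := by simpa [a2.symm, b2.symm, c02.symm, c12.symm] using h1 (P 2).2
  have e1 := R.conj U U _ _ hU hU le_rfl (cy_three ab a2 b2) (cy_three ab a1 b1)
  rw [conj_cy, cy_fst ab a1, cy_snd a1 b1, cy_of_ne a2.symm b2.symm c12.symm] at e1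
  have e2 := R.conj U U _ _ hU hU le_rfl (cy_three b1 b2 c12) (cy_three ab a0 b0)
  rw [conj_cy, cy_snd a0 b0, cy_of_ne a1.symm b1.symm c01.symm, cy_of_ne a2.symm b2.symm c02.symm] at e2
  rw [cAB, R.ψ_eq hU (h 0) h0 tA tB t0, R.ψ_eq hU (h 1) h0 tA tB t1, R.ψ_eq hU (h 2) h0 tA tB t2,
    R.ψ_eq hU ⟨c01, c02, c12⟩ h0 t0 t1 t2, ← e2, ← e1]
  group

theorem φ_cAB (hn : 9 ≤ n) {U V : Set X} (hU : IsClopen U) (hV : IsClopen V) {d : Perm (Fin n)}
    (hd : d.IsThreeCycle) {A B : G × Fin n} {P P' : Fin 3 → G × Fin n} (h : Ok A B P) (hA : d A.2 = A.2)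
    (hB : d B.2 = B.2) (hP : ∀ k, Mv V d U (P k) (P' k)) :
    R.φ V d * R.cAB U A B P * (R.φ V d)⁻¹ = R.cAB U A B P' ∧ Ok A B P' :=
  ⟨R.conj_cAB fun k => R.φ_ψ hn hU hV hd (h k) hA hB (hP k),
    fun k => ⟨(h k).1, (hP k).ne hA (h k).2.1, (hP k).ne hB (h k).2.2⟩⟩

/-- pieces on the same level are disjoint -/
def Dj (U : Set X) (P : Fin 3 → G × Fin n) : Prop :=
  ∀ k l, k ≠ l → (P k).2 = (P l).2 → Disjoint ((P k).1 +ᵥ U) ((P l).1 +ᵥ U)

/-- move one piece to a fresh level -/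
theorem move (hn : 9 ≤ n) {U : Set X} (hU : IsClopen U) {A B A' B' : G × Fin n} {P : Fin 3 → G × Fin n}
    (h : Ok A B P) (h' : Ok A' B' P) (hP : Dj U P) (k : Fin 3) :
    ∃ j, (∀ l, j ≠ (P l).2) ∧ Ok A B (Function.update P k ((P k).1, j)) ∧
      Ok A' B' (Function.update P k ((P k).1, j)) ∧ Dj U (Function.update P k ((P k).1, j)) ∧
      (R.cAB U A B (Function.update P k ((P k).1, j)) = R.cAB U A' B' (Function.update P k ((P k).1, j)) →
        R.cAB U A B P = R.cAB U A' B' P) := by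
  obtain ⟨j, m, hj, hm, hjm⟩ := exists_fresh2
    (({A.2, B.2, A'.2, B'.2} : Finset (Fin n)) ∪ {(P 0).2, (P 1).2, (P 2).2})
    (lt_of_le_of_lt (Nat.succ_le_succ ((Finset.card_union_le _ _).trans
      (add_le_add Finset.card_le_four Finset.card_le_three))) (by omega))
  simp only [Finset.mem_union, Finset.mem_insert, Finset.mem_singleton, not_or] at hj hm
  have hj' : ∀ l, j ≠ (P l).2 := fun l => by fin_cases l <;> simp [hj]
  have hm' : ∀ l, m ≠ (P l).2 := fun l => by fin_cases l <;> simp [hm]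
  have hd := cy_three (hj' k).symm (hm' k).symm hjm
  have hV := clopen_vadd hU (P k).1
  have mv : ∀ l, Mv ((P k).1 +ᵥ U) (cy (P k).2 j m) U (P l) (Function.update P k ((P k).1, j) l) := fun l => by
    by_cases e : l = k
    · subst e
      exact Or.inl ⟨le_rfl, by rw [Function.update_self, cy_fst (hj' l).symm (hm' l).symm]⟩
    · refine Or.inr ⟨?_, Function.update_of_ne e _ _⟩
      by_cases e' : (P l).2 = (P k).2
      · exact Or.inl (hP l k e e')
      · exact Or.inr (cy_of_ne e' (hj' l).symm (hm' l).symm)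
  obtain ⟨a1, a2⟩ := R.φ_cAB hn hU hV hd h (cy_of_ne (h k).2.1 (Ne.symm hj.1.1) (Ne.symm hm.1.1))
    (cy_of_ne (h k).2.2 (Ne.symm hj.1.2.1) (Ne.symm hm.1.2.1)) mv
  obtain ⟨b1, b2⟩ := R.φ_cAB hn hU hV hd h' (cy_of_ne (h' k).2.1 (Ne.symm hj.1.2.2.1) (Ne.symm hm.1.2.2.1))
    (cy_of_ne (h' k).2.2 (Ne.symm hj.1.2.2.2) (Ne.symm hm.1.2.2.2)) mv
  refine ⟨j, hj', a2, b2, fun a b hab e => ?_, fun e => ?_⟩
  · by_cases ha : a = k
    · subst ha
      rw [Function.update_self, Function.update_of_ne (Ne.symm hab)] at e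
      exact absurd e (hj' b)
    · by_cases hb : b = k
      · subst hb
        rw [Function.update_self, Function.update_of_ne ha] at e
        exact absurd e.symm (hj' a)
      · rw [Function.update_of_ne ha, Function.update_of_ne hb] at e ⊢
        exact hP a b hab e
  · rw [← a1, ← b1] at e
    simpa using e

theorem cAB_indep (hn : 9 ≤ n) {U : Set X} (hU : IsClopen U) {A B A' B' : G × Fin n} {P : Fin 3 → G × Fin n}
    (h : Ok A B P) (h' : Ok A' B' P) (hP : Dj U P) : R.cAB U A B P = R.cAB U A' B' P := by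
  obtain ⟨j, a1, a2, a3, a4, a5⟩ := R.move hn hU h h' hP 1
  obtain ⟨k, b1, b2, b3, -, b5⟩ := R.move hn hU a2 a3 a4 2
  refine a5 (b5 ?_)
  have : D3 (Function.update (Function.update P 1 ((P 1).1, j)) 2 ((Function.update P 1 ((P 1).1, j) 2).1, k) 0)
      (Function.update (Function.update P 1 ((P 1).1, j)) 2 ((Function.update P 1 ((P 1).1, j) 2).1, k) 1)
      (Function.update (Function.update P 1 ((P 1).1, j)) 2 ((Function.update P 1 ((P 1).1, j) 2).1, k) 2) :=
    ⟨by simpa using (a1 0).symm, by simpa using (b1 0).symm, by simpa using (b1 1).symm⟩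
  rw [R.cAB_eq_ψ hn hU b2 this, R.cAB_eq_ψ hn hU b3 this]

omit [AddAction G X] [TopologicalSpace X] [ContinuousConstVAdd G X] in
theorem exists_ok (hn : 9 ≤ n) (P : Fin 3 → G × Fin n) (F : Finset (Fin n)) (hF : F.card ≤ 3) :
    ∃ A B : G × Fin n, Ok A B P ∧ A.2 ∉ F ∧ B.2 ∉ F := by
  obtain ⟨a, b, ha, hb, hab⟩ := exists_fresh2 (F ∪ {(P 0).2, (P 1).2, (P 2).2})
    (lt_of_le_of_lt (Nat.succ_le_succ ((Finset.card_union_le _ _).trans
      (add_le_add hF Finset.card_le_three))) (by omega))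
  simp only [Finset.mem_union, Finset.mem_insert, Finset.mem_singleton, not_or] at ha hb
  exact ⟨(0, a), (0, b), fun k => ⟨hab, by fin_cases k <;> simp [ha], by fin_cases k <;> simp [hb]⟩, ha.1, hb.1⟩

open Classical in
/-- the generalised 3-cycle over `U` with pieces at the sites `P` -/
def cyc (U : Set X) (P : Fin 3 → G × Fin n) : Γ :=
  if h : ∃ AB : (G × Fin n) × (G × Fin n), Ok AB.1 AB.2 P then R.cAB U h.choose.1 h.choose.2 P else 1

theorem cyc_eq (hn : 9 ≤ n) {U : Set X} (hU : IsClopen U) {A B : G × Fin n} {P : Fin 3 → G × Fin n}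
    (h : Ok A B P) (hP : Dj U P) : R.cyc U P = R.cAB U A B P := by
  have hex : ∃ AB : (G × Fin n) × (G × Fin n), Ok AB.1 AB.2 P := ⟨(A, B), h⟩
  rw [cyc, dif_pos hex]
  exact R.cAB_indep hn hU hex.choose_spec h hP

variable [T2Space X] [IsCancelVAdd G X]

omit [TopologicalSpace X] [ContinuousConstVAdd G X] [T2Space X] in
theorem pt_inj (x : X) : Function.Injective fun p : G × Fin n => pt p x := fun p q h => by
  simp only [pt, Prod.mk.injEq] at h
  exact Prod.ext (IsCancelVAdd.right_cancel _ _ _ h.1) h.2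

theorem ev_dj {P : Fin 3 → G × Fin n} (hP : Function.Injective P) (x : X) : ∀ᶠ U in (𝓝 x).smallSets, Dj U P := by
  simp only [Dj, eventually_all]
  intro k l hkl e
  have : (P k).1 +ᵥ x ≠ (P l).1 +ᵥ x := fun h =>
    hkl (hP (Prod.ext (IsCancelVAdd.right_cancel _ _ _ h) e))
  obtain ⟨N, N', h1, h2, h3⟩ := t2_separation_nhds this
  filter_upwards [eventually_smallSets_subset.2 ((continuous_const_vadd (P k).1).continuousAt h1),
    eventually_smallSets_subset.2 ((continuous_const_vadd (P l).1).continuousAt h2)] with U a1 a2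
  refine h3.mono ?_ ?_
  · rintro _ ⟨y, hy, rfl⟩; exact a1 hy
  · rintro _ ⟨y, hy, rfl⟩; exact a2 hy

/-- the local conjugation rule -/
def Loc (g : Γ) : Prop := ∀ (x : X) (P : Fin 3 → G × Fin n), Function.Injective P →
  ∃ P' : Fin 3 → G × Fin n, (∀ k, R.π g (pt (P k) x) = pt (P' k) x) ∧
    ∀ᶠ U in (𝓝 x).smallSets, IsClopen U → g * R.cyc U P * g⁻¹ = R.cyc U P'

omit [ContinuousConstVAdd G X] [T2Space X] in
theorem inj_of {g : Γ} {x : X} {P P' : Fin 3 → G × Fin n} (hP : Function.Injective P)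
    (h : ∀ k, R.π g (pt (P k) x) = pt (P' k) x) : Function.Injective P' := fun k l e =>
  hP (pt_inj x ((R.π g).injective (by simp only [h, e])))

theorem loc_τ (hn : 9 ≤ n) {t : Fin n → G} (ht : ∑ i, t i = 0) : R.Loc (R.τ t) := by
  intro x P hP
  have h1 : ∀ k, R.π (R.τ t) (pt (P k) x) = pt (sh t (P k)) x := fun k => by
    simp [R.π_τ t ht, pt, sh, add_vadd]
  refine ⟨fun k => sh t (P k), h1, ?_⟩
  obtain ⟨A, B, h, -⟩ := exists_ok hn P ∅ (by simp)
  filter_upwards [ev_dj hP x, ev_dj (R.inj_of hP h1) x] with U a1 a2 hU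
  rw [R.cyc_eq hn hU h a1, R.cyc_eq hn hU (A := sh t A) (B := sh t B) (P := fun k => sh t (P k)) h a2]
  exact R.conj_cAB fun k => R.τ_ψ hn hU (h k) ht

theorem loc_φ (hn : 9 ≤ n) {V : Set X} (hV : IsClopen V) {d : Perm (Fin n)} (hd : d.IsThreeCycle) :
    R.Loc (R.φ V d) := by
  classical
  intro x P hP
  have h1 : ∀ k, R.π (R.φ V d) (pt (P k) x) =
      pt (if (P k).1 +ᵥ x ∈ V then ((P k).1, d (P k).2) else P k) x := fun k => by
    split_ifs with h
    · exact R.π_in V d hV hd _ h _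
    · exact R.π_out V d hV hd _ h _
  refine ⟨_, h1, ?_⟩
  obtain ⟨A, B, h, hA, hB⟩ := exists_ok hn P d.support hd.card_support.le
  have mv : ∀ᶠ U in (𝓝 x).smallSets, ∀ k,
      Mv V d U (P k) (if (P k).1 +ᵥ x ∈ V then ((P k).1, d (P k).2) else P k) := by
    rw [eventually_all]
    intro k
    split_ifs with e
    · filter_upwards [eventually_smallSets_subset.2
        ((continuous_const_vadd (P k).1).continuousAt (hV.2.mem_nhds e))] with U a
      exact Or.inl ⟨by rintro _ ⟨y, hy, rfl⟩; exact a hy, rfl⟩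
    · filter_upwards [eventually_smallSets_subset.2
        ((continuous_const_vadd (P k).1).continuousAt (hV.1.isOpen_compl.mem_nhds e))] with U a
      exact Or.inr ⟨Or.inl (Set.disjoint_left.2 (by rintro _ ⟨y, hy, rfl⟩; exact a hy)), rfl⟩
  filter_upwards [ev_dj hP x, ev_dj (R.inj_of hP h1) x, mv] with U a1 a2 a3 hU
  obtain ⟨b1, b2⟩ := R.φ_cAB hn hU hV hd h (by simpa using hA) (by simpa using hB) a3
  rw [R.cyc_eq hn hU h a1, R.cyc_eq hn hU b2 a2, b1]

omit [ContinuousConstVAdd G X] [T2Space X] in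
theorem Loc.mul {g h : Γ} (hg : R.Loc g) (hh : R.Loc h) : R.Loc (g * h) := by
  intro x P hP
  obtain ⟨P', a1, a2⟩ := hh x P hP
  obtain ⟨P'', b1, b2⟩ := hg x P' (R.inj_of hP a1)
  refine ⟨P'', fun k => by rw [map_mul, Perm.mul_apply, a1, b1], ?_⟩
  filter_upwards [a2, b2] with U c1 c2 hU
  rw [← c2 hU, ← c1 hU]; group

theorem loc (hn : 9 ≤ n) (g : Γ) : R.Loc g := by
  have hg : g ∈ Subgroup.closure _ := R.gen ▸ Subgroup.mem_top g
  induction hg using Subgroup.closure_induction'' with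
  | one => exact R.τ_zero ▸ R.loc_τ hn (by simp)
  | mem g hg =>
    rcases hg with ⟨v, hv, rfl⟩ | ⟨U, c, hU, hc, rfl⟩
    · exact R.loc_τ hn hv
    · exact R.loc_φ hn hU hc
  | inv_mem g hg =>
    rcases hg with ⟨v, hv, rfl⟩ | ⟨U, c, hU, hc, rfl⟩
    · exact R.τ_neg hv ▸ R.loc_τ hn (by simp [hv])
    · exact R.inv U c hU hc ▸ R.loc_φ hn hU hc.inv
  | mul g h _ _ hg hh => exact Loc.mul R hg hh

variable [CompactSpace X] [TotallyDisconnectedSpace X]

theorem comm_ψ (hn : 9 ≤ n) {k : Γ} (hk : R.π k = 1) {U : Set X} (hU : IsClopen U) {p q r : G × Fin n}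
    (h : D3 p q r) : Commute k (R.ψ U p q r) := by
  refine clopen_induction' (p := fun U => Commute k (R.ψ U p q r)) (by rw [R.ψ_empty hn h]; simp)
    (fun U V hU hV hUV h1 h2 => by rw [R.ψ_union hn hU hV hUV h]; exact h1.mul_right h2) (fun x => ?_) hU
  have hP : Function.Injective ![p, q, r] := by
    obtain ⟨h1, h2, h3⟩ := h
    intro a b e
    have := congrArg Prod.snd e
    fin_cases a <;> fin_cases b <;> simp_all
  obtain ⟨P', a1, a2⟩ := R.loc hn k x _ hP
  obtain rfl : ![p, q, r] = P' := funext fun l => pt_inj x (by simpa [hk] using a1 l)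
  obtain ⟨A, B, ok, -⟩ := exists_ok hn ![p, q, r] ∅ (by simp)
  filter_upwards [a2, ev_dj hP x] with U b1 b2 hU
  have := b1 hU
  rw [R.cyc_eq hn hU ok b2, R.cAB_eq_ψ hn hU ok h, mul_inv_eq_iff_eq_mul] at this
  exact this

theorem comm_τφ (hn : 9 ≤ n) {k : Γ} (hk : R.π k = 1) {U : Set X} (hU : IsClopen U) {c : Perm (Fin n)}
    (hc : c.IsThreeCycle) {t : Fin n → G} (ht : ∑ i, t i = 0) : Commute k (R.τ t * R.φ U c * (R.τ t)⁻¹) := by
  obtain ⟨a, b, e, h1, h2, h3, rfl⟩ := exists_cy hc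
  have h : D3 (t a, a) (t b, b) (t e, e) := ⟨h1, h2, h3⟩
  rw [← R.ψ_eq hU h ht rfl rfl rfl]
  exact R.comm_ψ hn hk hU h

theorem comm_φ (hn : 9 ≤ n) {k : Γ} (hk : R.π k = 1) {U : Set X} (hU : IsClopen U) {c : Perm (Fin n)}
    (hc : c.IsThreeCycle) : Commute k (R.φ U c) := by
  simpa [R.τ_zero] using R.comm_τφ hn hk hU hc (t := 0) (by simp)

theorem comm_τ (hn : 9 ≤ n) {k : Γ} (hk : R.π k = 1) {v : Fin n → G} (hv : ∑ i, v i = 0) : Commute k (R.τ v) := by
  have s0 : ∀ (i j : Fin n) (w : G), ∑ l, (Pi.single i w - Pi.single j w : Fin n → G) l = 0 := fun i j w => by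
    simp [Finset.sum_sub_distrib]
  have h1 : ∀ (i j : Fin n) (w : G), Commute k (R.τ (Pi.single i w - Pi.single j w)) := by
    intro i j w
    by_cases hij : i = j
    · rw [hij, sub_self, R.τ_zero]; simp
    obtain ⟨m, l, hm, hl, hml⟩ := exists_fresh2 ({i, j} : Finset (Fin n))
      (lt_of_le_of_lt (Nat.succ_le_succ Finset.card_le_two) (by omega))
    simp only [Finset.mem_insert, Finset.mem_singleton, not_or] at hm hl
    have hc := cy_three hij (Ne.symm hm.1) (Ne.symm hm.2)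
    have e1 := R.perm _ _ hc (s0 i l w)
    have e2 : (fun a => (Pi.single i w - Pi.single l w : Fin n → G) ((cy i j m)⁻¹ a)) =
        Pi.single j w - Pi.single l w := by
      funext a
      simp only [Pi.sub_apply, Pi.single_apply, Perm.inv_eq_iff_eq, cy_fst hij (Ne.symm hm.1),
        cy_of_ne hl.1 hl.2 hml.symm]
    rw [e2] at e1
    have e3 : R.τ (Pi.single i w - Pi.single j w) = R.τ (Pi.single i w - Pi.single l w) * R.φ Set.univ (cy i j m) *
        (R.τ (Pi.single i w - Pi.single l w))⁻¹ * (R.φ Set.univ (cy i j m))⁻¹ := by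
      rw [show (Pi.single i w - Pi.single j w : Fin n → G) =
        (Pi.single i w - Pi.single l w) + -(Pi.single j w - Pi.single l w) by abel,
        R.τ_add _ _ (s0 i l w) (by simpa using s0 l j w), R.τ_neg (s0 j l w), ← e1]
      group
    rw [e3]
    exact (R.comm_τφ hn hk isClopen_univ hc (s0 i l w)).mul_right (R.comm_φ hn hk isClopen_univ hc).inv_right
  let i0 : Fin n := ⟨0, by omega⟩
  have h2 : ∀ s : Finset (Fin n), ∑ l, (∑ i ∈ s, (Pi.single i (v i) - Pi.single i0 (v i) : Fin n → G)) l = 0 ∧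
      Commute k (R.τ (∑ i ∈ s, (Pi.single i (v i) - Pi.single i0 (v i)))) := by
    intro s
    induction s using Finset.induction_on with
    | empty => simp [R.τ_zero]
    | insert a s ha ih =>
      rw [Finset.sum_insert ha, R.τ_add _ _ (s0 _ _ _) ih.1]
      exact ⟨by simp only [Pi.add_apply, Finset.sum_add_distrib, s0, ih.1, add_zero], (h1 _ _ _).mul_right ih.2⟩
  have h3 : ∑ i, (Pi.single i (v i) - Pi.single i0 (v i) : Fin n → G) = v := by
    rw [Finset.sum_sub_distrib, Finset.univ_sum_single]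
    have := map_sum (AddMonoidHom.single (fun _ : Fin n => G) i0) v Finset.univ
    rw [hv, map_zero] at this
    simp only [AddMonoidHom.single_apply] at this
    rw [← this, sub_zero]
  exact h3 ▸ (h2 Finset.univ).2

/-- **B3**: the kernel of `π` is central. -/
theorem ker_le_center (hn : 9 ≤ n) : R.π.ker ≤ Subgroup.center Γ := by
  intro k hk
  rw [Subgroup.mem_center_iff]
  intro g
  have : Subgroup.closure _ ≤ Subgroup.centralizer {k} := (Subgroup.closure_le _).2 (by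
    rintro g (⟨v, hv, rfl⟩ | ⟨U, c, hU, hc, rfl⟩) <;>
      rw [SetLike.mem_coe, Subgroup.mem_centralizer_singleton_iff]
    · exact (R.comm_τ hn hk hv).symm.eq
    · exact (R.comm_φ hn hk hU hc).symm.eq :
      ({g | ∃ v, ∑ i, v i = 0 ∧ g = R.τ v} ∪ {g | ∃ U c, IsClopen U ∧ c.IsThreeCycle ∧ g = R.φ U c}) ⊆ _)
  rw [R.gen] at this
  exact Subgroup.mem_centralizer_singleton_iff.1 (this (Subgroup.mem_top g))

end Rig

end Crest.Agent.R189

end
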