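import Crest.Agent.R189.C.Gam
import Crest.Agent.R189.B1.Shift

/-!
# Row 189, block B3 (owner helper95): the ambient data of the conditions calculus for `Γ`
-/

set_option autoImplicit false

noncomputable section

namespace Crest.Agent.R189

open Equiv Pointwise SFT C B1

namespace Dat

variable {X : SFT} {r : ℕ} {Γ : Type} [Group Γ] (Δ : Dat X r Γ)

theorem τ_zero : Δ.τ 0 = 1 := by
  have := Δ.τ_add 0 0
  rw [add_zero] at this
  exact left_eq_mul.1 this

theorem τ_comm (s t : Lv → V) : Commute (Δ.τ s) (Δ.τ t) := by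
  rw [Commute, SemiconjBy, ← Δ.τ_add, ← Δ.τ_add, add_comm]

open Classical in
/-- `E U c` as a function of a permutation -/
def e (U : Set X.Pt) (c : Perm Lv) : Γ := if h : c ∈ alternatingGroup Lv then Δ.E U ⟨c, h⟩ else 1

theorem e_of (U : Set X.Pt) {c : Perm Lv} (h : c ∈ alternatingGroup Lv) : Δ.e U c = Δ.E U ⟨c, h⟩ := dif_pos h

theorem e_mul (U : Set X.Pt) {c d : Perm Lv} (hc : c ∈ alternatingGroup Lv) (hd : d ∈ alternatingGroup Lv) :
    Δ.e U (c * d) = Δ.e U c * Δ.e U d := by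
  rw [Δ.e_of U hc, Δ.e_of U hd, Δ.e_of U (mul_mem hc hd), ← map_mul]; rfl

theorem e_inv (U : Set X.Pt) {c : Perm Lv} (hc : c ∈ alternatingGroup Lv) : Δ.e U c⁻¹ = (Δ.e U c)⁻¹ := by
  rw [Δ.e_of U hc, Δ.e_of U (inv_mem hc), ← map_inv]; rfl

variable {U W : Set X.Pt} {c d : Perm Lv}

theorem e_add (hU : Det r U) (hW : Det r W) (h : Disjoint U W) (hc : c ∈ alternatingGroup Lv) :
    Δ.e (U ∪ W) c = Δ.e U c * Δ.e W c := by
  simp only [Δ.e_of _ hc, Δ.add U W _ hU hW h]

theorem e_orth (hU : Det r U) (hW : Det r W) (h : Disjoint U W) (hc : c ∈ alternatingGroup Lv)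
    (hd : d ∈ alternatingGroup Lv) : Commute (Δ.e U c) (Δ.e W d) := by
  rw [Δ.e_of _ hc, Δ.e_of _ hd]; exact Δ.orth U W _ _ hU hW h

theorem e_empty (hc : c ∈ alternatingGroup Lv) : Δ.e ∅ c = 1 := by
  have := Δ.e_add (det_empty r) (det_empty r) (by simp) hc
  rw [Set.union_empty] at this
  exact left_eq_mul.1 this

theorem e_split (hU : Det r U) (hW : Det r W) (hc : c ∈ alternatingGroup Lv) :
    Δ.e U c = Δ.e (U ∩ W) c * Δ.e (U ∩ Wᶜ) c := by
  rw [← Δ.e_add (hU.inter hW) (hU.inter hW.compl)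
    (disjoint_compl_right.mono Set.inter_subset_right Set.inter_subset_right) hc, Set.inter_union_compl]

theorem e_conj (hU : Det r U) (hW : Det r W) (h : U ⊆ W) (hc : c ∈ alternatingGroup Lv)
    (hd : d ∈ alternatingGroup Lv) : Δ.e W d * Δ.e U c * (Δ.e W d)⁻¹ = Δ.e U (d * c * d⁻¹) := by
  have h1 := Δ.e_orth (hW.inter hU.compl) hU (disjoint_compl_left.mono_left Set.inter_subset_right) hd hc
  rw [Δ.e_split hW hU hd, Set.inter_eq_right.2 h, Δ.e_mul U (mul_mem hd hc) (inv_mem hd), Δ.e_mul U hd hc,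
    Δ.e_inv U hd, mul_assoc (Δ.e U d), h1.eq]
  group

theorem e_comm (hU : Det r U) (hW : Det r W) (hc : c ∈ alternatingGroup Lv) (hd : d ∈ alternatingGroup Lv)
    (h : Commute d c) : Commute (Δ.e W d) (Δ.e U c) := by
  rw [Δ.e_split hU hW hc]
  refine Commute.mul_right ?_
    (Δ.e_orth hW (hU.inter hW.compl) (disjoint_compl_right.mono_right Set.inter_subset_right) hd hc)
  have := Δ.e_conj (hU.inter hW) hW Set.inter_subset_right hc hd
  rw [h.eq, mul_inv_cancel_right, mul_inv_eq_iff_eq_mul] at this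
  exact this

theorem τ_e (hU : Det r U) (hc : c ∈ alternatingGroup Lv) {t : Lv → V} (ht : ∑ i, t i = 0)
    (h : ∀ i, c i ≠ i → t i = 0) : Commute (Δ.τ t) (Δ.e U c) := by
  rw [Δ.e_of _ hc]; exact Δ.trans0 U _ t hU ht h

theorem τ_congr (hU : Det r U) (hc : c ∈ alternatingGroup Lv) {t u : Lv → V} (ht : ∑ i, t i = 0)
    (hu : ∑ i, u i = 0) (h : ∀ i, c i ≠ i → u i = t i) :
    Δ.τ t * Δ.e U c * (Δ.τ t)⁻¹ = Δ.τ u * Δ.e U c * (Δ.τ u)⁻¹ := by
  have := Δ.τ_e hU hc (t := t - u) (by simp [Finset.sum_sub_distrib, ht, hu]) fun i hi => by simp [h i hi]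
  rw [show t = u + (t - u) by abel, Δ.τ_add, mul_assoc (Δ.τ u), this.eq]
  group

theorem pre (U : Set X.Pt) : Pre (Δ.e U) where
  inv c hc := Δ.e_inv U hc.mem_alternatingGroup
  self c d hc hd := by
    have h1 := hc.mem_alternatingGroup
    have h2 := hd.mem_alternatingGroup
    rw [Δ.e_mul U (mul_mem h2 h1) (inv_mem h2), Δ.e_mul U h2 h1, Δ.e_inv U h2]
  four k a b c h1 h2 h3 h4 h5 h6 := by
    rw [← Δ.e_mul U (cy_three h1 h2 h4).mem_alternatingGroup (cy_three h2 h3 h6).mem_alternatingGroup,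
      cy_four h1 h2 h3 h4 h5 h6]

/-- generators of the subgroup supported on the levels `J` -/
def gs (J : Finset Lv) : Set Γ := {g | ∃ t U c, ∑ i, t i = 0 ∧ Det r U ∧ c.IsThreeCycle ∧ c.support ⊆ J ∧
  g = Δ.τ t * Δ.e U c * (Δ.τ t)⁻¹}

theorem e_mem (hU : Det r U) (hc : c.IsThreeCycle) {J : Finset Lv} (h : c.support ⊆ J) :
    Δ.e U c ∈ Subgroup.closure (Δ.gs J) :=
  Subgroup.subset_closure ⟨0, U, c, by simp, hU, hc, h, by simp [Δ.τ_zero]⟩

theorem commute_closure {s t : Set Γ} (h : ∀ x ∈ s, ∀ y ∈ t, Commute x y) {x y : Γ} (hx : x ∈ Subgroup.closure s)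
    (hy : y ∈ Subgroup.closure t) : Commute x y := by
  have h1 : Subgroup.closure s ≤ Subgroup.centralizer t :=
    (Subgroup.closure_le _).2 fun x hx y hy => (h x hx y hy).symm.eq
  have h2 : Subgroup.closure t ≤ Subgroup.centralizer (Subgroup.closure s : Set Γ) :=
    (Subgroup.closure_le _).2 fun y hy x hx => (h1 hx y hy).symm
  exact h2 hy x hx

/-- the ambient data -/
def amb : Amb 12 Γ where
  hn := by norm_num
  D J := Subgroup.closure (Δ.gs J)
  mono h := Subgroup.closure_mono fun _ ⟨t, U, c, h1, h2, h3, h4, h5⟩ => ⟨t, U, c, h1, h2, h3, h4.trans h, h5⟩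
  comm {I J x y} h := commute_closure (by
    rintro _ ⟨t, U, c, h1, h2, h3, h4, rfl⟩ _ ⟨s, W, d, k1, k2, k3, k4, rfl⟩
    have hd : Disjoint c.support d.support := h.mono h4 k4
    obtain ⟨u, u0, hu⟩ := exists_t (c.support ∪ d.support)
      (lt_of_le_of_lt (Finset.card_union_le _ _) (by rw [h3.card_support, k3.card_support]; norm_num))
      fun i => if i ∈ c.support then t i else s i
    rw [Δ.τ_congr h2 h3.mem_alternatingGroup h1 u0 fun i hi => by
        have : i ∈ c.support := by simpa using hi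
        rw [hu i (Finset.mem_union_left _ this), if_pos this],
      Δ.τ_congr k2 k3.mem_alternatingGroup k1 u0 fun i hi => by
        have : i ∈ d.support := by simpa using hi
        rw [hu i (Finset.mem_union_right _ this), if_neg (Finset.disjoint_right.1 hd this)]]
    exact (Δ.e_comm k2 h2 k3.mem_alternatingGroup h3.mem_alternatingGroup
      (Perm.disjoint_iff_disjoint_support.2 hd).commute).map (MulAut.conj (Δ.τ u)))
  one := Δ.e Set.univ
  pre := Δ.pre _
  mem _ _ hc h _ := Δ.e_mem (det_univ r) hc h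

/-- the level translations -/
def tr : Tr Δ.amb V where
  τ := Δ.τ
  τ_add v w _ _ := Δ.τ_add v w
  norm t J g ht hg := by
    have : Subgroup.closure (Δ.gs J) ≤ (Subgroup.closure (Δ.gs J)).comap (MulAut.conj (Δ.τ t)).toMonoidHom :=
      (Subgroup.closure_le _).2 (by
        rintro _ ⟨s, U, c, h1, h2, h3, h4, rfl⟩
        exact Subgroup.subset_closure ⟨t + s, U, c, by simp [Finset.sum_add_distrib, ht, h1], h2, h3, h4, by
          simp only [Δ.τ_add, MulEquiv.coe_toMonoidHom, MulAut.conj_apply]; group⟩)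
    exact this hg
  fix t J g ht h hg := by
    refine commute_closure (s := {Δ.τ t}) ?_ (Subgroup.subset_closure rfl) hg
    rintro _ rfl _ ⟨s, U, c, -, h2, h3, h4, rfl⟩
    exact ((Δ.τ_comm t s).mul_right (Δ.τ_e h2 h3.mem_alternatingGroup ht fun i hi =>
      h i (h4 (by simpa using hi)))).mul_right (Δ.τ_comm t s).inv_right
  perm c t hc ht := by
    show Δ.e Set.univ c * _ * (Δ.e Set.univ c)⁻¹ = _
    rw [Δ.e_of _ hc.mem_alternatingGroup]; exact Δ.perm _ t ht

open Classical in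
/-- the condition "`x ∈ U`" for `U` determined by the window -/
def cE (U : Set X.Pt) : Cond Δ.amb :=
  if h : Det r U then Cond.mk' (Δ.e U) ⟨Δ.pre U, fun _ _ hc hJ _ => Δ.e_mem h hc hJ, fun _ hd _ hc =>
    Δ.e_conj h (det_univ r) (Set.subset_univ _) hc.mem_alternatingGroup hd.mem_alternatingGroup⟩
  else Cond.bot _

theorem cE_val (hU : Det r U) (hc : c.IsThreeCycle) : (Δ.cE U).val c = Δ.e U c := by
  rw [cE, dif_pos hU, Cond.mk'_val _ hc]

theorem cE_le (hU : Det r U) (hW : Det r W) (h : U ⊆ W) : (Δ.cE U).Le (Δ.cE W) := fun d hd c hc => by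
  rw [Δ.cE_val hU hc, Δ.cE_val hW hd, Δ.cE_val hU (three_conj hc d)]
  exact Δ.e_conj hU hW h hc.mem_alternatingGroup hd.mem_alternatingGroup

theorem cE_orth (hU : Det r U) (hW : Det r W) (h : Disjoint U W) : (Δ.cE U).Orth (Δ.cE W) := fun c d hc hd => by
  rw [Δ.cE_val hU hc, Δ.cE_val hW hd]
  exact Δ.e_orth hU hW h hc.mem_alternatingGroup hd.mem_alternatingGroup

theorem cE_compl (hU : Det r U) : Δ.cE Uᶜ = (Δ.cE U).compl := Cond.ext' fun c hc => by
  rw [Cond.compl_val _ hc, Δ.cE_val hU hc, Δ.cE_val hU.compl hc, eq_mul_inv_iff_mul_eq,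
    ← Δ.e_add hU.compl hU disjoint_compl_left hc.mem_alternatingGroup, Set.compl_union_self]
  rfl

theorem cE_empty : Δ.cE ∅ = Cond.bot _ := Cond.ext' fun c hc => by
  rw [Δ.cE_val (det_empty r) hc, Δ.e_empty hc.mem_alternatingGroup]; rfl

theorem cE_cp (hU : Det r U) (hW : Det r W) : (Δ.cE U).Cp (Δ.cE W) :=
  ⟨Δ.cE (W ∩ U), Δ.cE (W ∩ Uᶜ), Δ.cE_le (hW.inter hU) hU Set.inter_subset_right,
    Δ.cE_orth (hW.inter hU.compl) hU (disjoint_compl_left.mono_left Set.inter_subset_right), fun c hc => by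
      rw [Δ.cE_val hW hc, Δ.cE_val (hW.inter hU) hc, Δ.cE_val (hW.inter hU.compl) hc,
        Δ.e_split hW hU hc.mem_alternatingGroup]⟩

theorem sh_cE {v : V} (hv : v ∈ box r) (hU : Det r U) (hW : Det r (v +ᵥ U)) :
    Δ.tr.sh v (Δ.cE U) = Δ.cE (v +ᵥ U) := Cond.ext' fun c hc => by
  rw [Δ.tr.sh_val v _ hc (tc_spec hc v).1 (tc_spec hc v).2, Δ.cE_val hU hc, Δ.cE_val hW hc,
    Δ.e_of _ hc.mem_alternatingGroup, Δ.e_of _ hc.mem_alternatingGroup]
  exact Δ.trans U _ _ v hv hU hW hc (tc_spec hc v).1 (tc_spec hc v).2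

theorem π_e (hU : Det r U) (hc : c ∈ alternatingGroup Lv) : Δ.π (Δ.e U c) = P U c := by
  rw [Δ.e_of _ hc, Δ.π_E U _ hU]

end Dat

end Crest.Agent.R189

end
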