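import Crest.Agent.R189.C.Rig
import Crest.Agent.R189.Basic
import Crest.Agent.R189.Full.Gen

/-!
# Row 189, block B3 (owner helper95): the finitely presented group `Γ` and its defining relations
-/

set_option autoImplicit false

noncomputable section

namespace Crest.Agent.R189

open Equiv Pointwise Filter SFT
open scoped commutatorElement

namespace C

section P
variable {G Y : Type*} [AddCommGroup G] [AddAction G Y] {n : ℕ}

/-- the permutation `c` of the levels over `U` -/
def P (U : Set Y) (c : Perm (Fin n)) : Perm (Y × Fin n) := phi (U.mulIndicator fun _ => c)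

theorem P_in {U : Set Y} (c : Perm (Fin n)) {x : Y} (h : x ∈ U) (i : Fin n) : P U c (x, i) = (x, c i) := by
  simp [P, h]

theorem P_out {U : Set Y} (c : Perm (Fin n)) {x : Y} (h : x ∉ U) (i : Fin n) : P U c (x, i) = (x, i) := by
  simp [P, h]

theorem P_mul (U : Set Y) (c d : Perm (Fin n)) : P U (c * d) = P U c * P U d := by
  ext1 ⟨x, i⟩
  by_cases h : x ∈ U <;> simp [P_in, P_out, h]

theorem P_one (U : Set Y) : P U (1 : Perm (Fin n)) = 1 := by
  ext1 ⟨x, i⟩
  by_cases h : x ∈ U <;> simp [P_in, P_out, h]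

theorem P_inv (U : Set Y) (c : Perm (Fin n)) : P U c⁻¹ = (P U c)⁻¹ := by
  rw [eq_inv_iff_mul_eq_one, ← P_mul, inv_mul_cancel, P_one]

theorem P_add {U W : Set Y} (h : Disjoint U W) (c : Perm (Fin n)) : P (U ∪ W) c = P U c * P W c := by
  ext1 ⟨x, i⟩
  by_cases h1 : x ∈ U
  · have h2 := Set.disjoint_left.1 h h1
    simp [P_in, P_out, h1, h2]
  · by_cases h2 : x ∈ W <;> simp [P_in, P_out, h1, h2]

theorem P_orth {U W : Set Y} (h : Disjoint U W) (c d : Perm (Fin n)) : P U c * P W d = P W d * P U c := by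
  ext1 ⟨x, i⟩
  by_cases h1 : x ∈ U
  · have h2 := Set.disjoint_left.1 h h1
    simp [P_in, P_out, h1, h2]
  · by_cases h2 : x ∈ W <;> simp [P_in, P_out, h1, h2]

theorem P_conj {U W : Set Y} (h : U ⊆ W) (c d : Perm (Fin n)) :
    P W d * P U c * (P W d)⁻¹ = P U (d * c * d⁻¹) := by
  rw [← P_inv]
  ext1 ⟨x, i⟩
  by_cases h1 : x ∈ U
  · have h2 := h h1
    simp [P_in, h1, h2]
  · by_cases h2 : x ∈ W <;> simp [P_in, P_out, h1, h2]

theorem P_comm (U W : Set Y) (c d : Perm (Fin n)) : ⁅P U c, P W d⁆ = P (U ∩ W) ⁅c, d⁆ := by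
  rw [commutatorElement_def, ← P_inv, ← P_inv]
  ext1 ⟨x, i⟩
  by_cases h1 : x ∈ U <;> by_cases h2 : x ∈ W <;> simp [P_in, P_out, h1, h2, commutatorElement_def]

theorem lev_P {U : Set Y} {c : Perm (Fin n)} {t : Fin n → G} {v : G} (h : ∀ i, c i ≠ i → t i = v) :
    lev Y t * P U c * (lev Y t)⁻¹ = P (v +ᵥ U) c := by
  rw [mul_inv_eq_iff_eq_mul]
  ext1 ⟨x, i⟩
  by_cases e : c i = i
  · have : ∀ (W : Set Y) (y : Y), P W c (y, i) = (y, i) := fun W y => by
      by_cases h : y ∈ W <;> simp [P_in, P_out, h, e]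
    simp [this]
  · have e' : c (c i) ≠ c i := fun h => e (c.injective h)
    by_cases h1 : x ∈ U
    · simp [P_in, h1, h i e, h _ e', Set.vadd_mem_vadd_set_iff]
    · simp [P_out, h1, h i e, Set.vadd_mem_vadd_set_iff]

theorem P_lev (c : Perm (Fin n)) (t : Fin n → G) :
    P Set.univ c * lev Y t * (P Set.univ c)⁻¹ = lev Y fun i => t (c⁻¹ i) := by
  rw [mul_inv_eq_iff_eq_mul]
  ext1 ⟨x, i⟩
  simp [P_in]

end P

/-- the elementary translations -/
def el (i j : Lv) (b : Bool) : Lv → V := Pi.single i (ev b) - Pi.single j (ev b)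

theorem sum_el (i j : Lv) (b : Bool) : ∑ l, el i j b l = 0 := by simp [el, Finset.sum_sub_distrib]

/-- coordinates -/
def co (b : Bool) (v : V) : ℤ := if b then v.1 else v.2

theorem sum_co (v : V) : ∑ b, co b v • ev b = v := by
  ext <;> simp [co, ev]

theorem sum_co_el (t : Lv → V) (j : Lv) : ∑ p : Lv × Bool, co p.2 (t p.1) • el p.1 j p.2 = t - Pi.single j (∑ i, t i) := by
  have h : ∀ i (w : V), ∑ b, co b w • (Pi.single i (ev b) : Lv → V) = Pi.single i w := fun i w => by
    simp only [← Pi.single_smul]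
    exact (map_sum (AddMonoidHom.single (fun _ : Lv => V) i) _ _).symm.trans (by rw [sum_co]; rfl)
  simp only [Fintype.sum_prod_type, el, smul_sub, Finset.sum_sub_distrib, h, Finset.univ_sum_single]
  rw [sub_right_inj]
  exact (map_sum (AddMonoidHom.single (fun _ : Lv => V) j) _ _).symm

/-- sum-zero translations supported in `F` are generated by the elementary ones -/
theorem T_induction {p : (Lv → V) → Prop} {F : Set Lv} (h0 : p 0)
    (ha : ∀ s t, ∑ i, s i = 0 → ∑ i, t i = 0 → p s → p t → p (s + t))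
    (he : ∀ i ∈ F, ∀ j ∈ F, ∀ b, p (el i j b)) {t : Lv → V} (ht : ∑ i, t i = 0) (hF : ∀ i, t i ≠ 0 → i ∈ F) : p t := by
  by_cases hz : t = 0
  · exact hz ▸ h0
  obtain ⟨j, hj⟩ := Function.ne_iff.1 hz
  let H : AddSubmonoid (Lv → V) :=
    { carrier := {t | ∑ i, t i = 0 ∧ p t}
      zero_mem' := ⟨by simp, h0⟩
      add_mem' := fun {s t} hs ht => ⟨by simp [Finset.sum_add_distrib, hs.1, ht.1], ha s t hs.1 ht.1 hs.2 ht.2⟩ }
  have : ∑ q : Lv × Bool, co q.2 (t q.1) • el q.1 j q.2 ∈ H := sum_mem fun q _ => by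
    by_cases e : t q.1 = 0
    · simp [e, co, H.zero_mem]
    obtain ⟨k, hk | hk⟩ := Int.eq_nat_or_neg (co q.2 (t q.1))
    · rw [hk, natCast_zsmul]
      exact H.nsmul_mem (show _ ∧ _ from ⟨sum_el _ _ _, he _ (hF _ e) _ (hF _ hj) _⟩) k
    · rw [hk, neg_smul, ← smul_neg, natCast_zsmul, show -el q.1 j q.2 = el j q.1 q.2 by simp [el]]
      exact H.nsmul_mem (show _ ∧ _ from ⟨sum_el _ _ _, he _ (hF _ hj) _ (hF _ e) _⟩) k
  rw [sum_co_el, ht, Pi.single_zero, sub_zero] at this
  exact this.2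

variable {X : SFT}

/-- `U` is determined by the window of radius `r` -/
def Det (r : ℕ) (U : Set X.Pt) : Prop := ∀ x y, agree r x y → (x ∈ U ↔ y ∈ U)

theorem Det.clopen {r : ℕ} {U : Set X.Pt} (h : Det r U) : IsClopen U := SFT.isClopen_iff.2 ⟨r, h⟩

theorem Det.compl {r : ℕ} {U : Set X.Pt} (h : Det r U) : Det r Uᶜ := fun x y e => not_congr (h x y e)

theorem Det.inter {r : ℕ} {U W : Set X.Pt} (h : Det r U) (h' : Det r W) : Det r (U ∩ W) :=
  fun x y e => and_congr (h x y e) (h' x y e)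

theorem Det.union {r : ℕ} {U W : Set X.Pt} (h : Det r U) (h' : Det r W) : Det r (U ∪ W) :=
  fun x y e => or_congr (h x y e) (h' x y e)

theorem det_empty (r : ℕ) : Det r (∅ : Set X.Pt) := fun _ _ _ => Iff.rfl

theorem det_univ (r : ℕ) : Det r (Set.univ : Set X.Pt) := fun _ _ _ => Iff.rfl

theorem det_cyl {r : ℕ} {u : V} (h : u ∈ box r) (a : X.A) : Det r (cyl u a) := fun x y e => by
  simp only [cyl, Set.mem_ofPred_eq, e u h]

instance finite_det (r : ℕ) : Finite {U : Set X.Pt // Det r U} :=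
  Finite.of_injective (fun U => (fun (x : X.Pt) (u : box r) => x.1 u) '' U.1) fun U W h => by
    have key : ∀ U W : {U : Set X.Pt // Det r U},
        (fun (x : X.Pt) (u : box r) => x.1 u) '' U.1 = (fun (x : X.Pt) (u : box r) => x.1 u) '' W.1 → U.1 ⊆ W.1 :=
      fun U W h x hx => by
        obtain ⟨y, hy, e⟩ := h.subset ⟨x, hx, rfl⟩
        exact (W.2 y x fun u hu => congrFun e ⟨u, hu⟩).1 hy
    exact Subtype.ext ((key U W h).antisymm (key W U h.symm))

/-- the sets determined by a window are generated by the cylinders -/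
theorem det_induction {r : ℕ} {p : Set X.Pt → Prop} (h0 : p ∅) (hc : ∀ u ∈ box r, ∀ a, p (cyl u a))
    (hn : ∀ U, Det r U → p U → p Uᶜ) (hi : ∀ U W, Det r U → Det r W → p U → p W → p (U ∩ W))
    {U : Set X.Pt} (hU : Det r U) : p U := by
  have fin : ∀ {ι : Type} (s : Set ι) (f : ι → Set X.Pt), s.Finite → (∀ i ∈ s, Det r (f i) ∧ p (f i)) →
      Det r (⋂ i ∈ s, f i) ∧ p (⋂ i ∈ s, f i) := by
    intro ι s f hs h
    induction s, hs using Set.Finite.induction_on with
    | empty => simpa using ⟨det_univ r, by simpa using hn _ (det_empty r) h0⟩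
    | insert _ _ ih =>
      rw [Set.biInter_insert]
      obtain ⟨a1, a2⟩ := h _ (Set.mem_insert _ _)
      obtain ⟨b1, b2⟩ := ih fun i hi => h i (Set.mem_insert_of_mem _ hi)
      exact ⟨a1.inter b1, hi _ _ a1 b1 a2 b2⟩
  have e : U = ⋂ q ∈ (fun (x : X.Pt) (u : box r) => x.1 u) '' Uᶜ, (⋂ u ∈ (Set.univ : Set (box r)), cyl u.1 (q u))ᶜ := by
    ext x
    simp only [Set.mem_iInter, Set.mem_compl_iff, cyl, Set.mem_ofPred_eq, Set.mem_univ, forall_const]
    constructor
    · rintro hx _ ⟨y, hy, rfl⟩ h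
      exact hy ((hU x y fun u hu => h ⟨u, hu⟩).1 hx)
    · intro h
      by_contra hx
      exact h _ ⟨x, hx, rfl⟩ fun _ => rfl
  rw [e]
  refine (fin _ _ (Set.toFinite _) fun q _ => ?_).2
  obtain ⟨a1, a2⟩ := fin Set.univ (fun u : box r => cyl u.1 (q u)) (Set.toFinite _)
    fun u _ => ⟨det_cyl u.2 _, hc _ u.2 _⟩
  exact ⟨a1.compl, hn _ a1 a2⟩

theorem clopen_gen {p : Set X.Pt → Prop} (h0 : p ∅) (hc : ∀ u a, p (cyl u a))
    (hn : ∀ U, IsClopen U → p U → p Uᶜ) (hi : ∀ U W, IsClopen U → IsClopen W → p U → p W → p (U ∩ W))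
    {U : Set X.Pt} (hU : IsClopen U) : p U := by
  obtain ⟨r, h⟩ := SFT.isClopen_iff.1 hU
  exact det_induction (r := r) h0 (fun u _ => hc u) (fun U h => hn U h.clopen)
    (fun U W h h' => hi U W h.clopen h'.clopen) h

theorem vadd_cyl (v w : V) (a : X.A) : v +ᵥ cyl w a = cyl (w - v) a := by
  ext x
  simp [Set.mem_vadd_set_iff_neg_vadd_mem, cyl, sub_eq_add_neg]

end C

open C

/-- finitely many lifts: even permutations over the sets determined by the window of radius `r`, level translations -/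
structure Dat (X : SFT) (r : ℕ) (Γ : Type) [Group Γ] where
  π : Γ →* Perm (X.Pt × Lv)
  τ : (Lv → V) → Γ
  E : Set X.Pt → alternatingGroup Lv →* Γ
  τ_add : ∀ v w, τ (v + w) = τ v * τ w
  π_τ : ∀ v, ∑ i, v i = 0 → π (τ v) = lev X.Pt v
  π_E : ∀ U c, Det r U → π (E U c) = P U c.1
  add : ∀ U W c, Det r U → Det r W → Disjoint U W → E (U ∪ W) c = E U c * E W c
  orth : ∀ U W c d, Det r U → Det r W → Disjoint U W → Commute (E U c) (E W d)
  trans0 : ∀ U c t, Det r U → ∑ i, t i = 0 → (∀ i, c.1 i ≠ i → t i = 0) → Commute (τ t) (E U c)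
  trans : ∀ U c t, ∀ v ∈ box r, Det r U → Det r (v +ᵥ U) → c.1.IsThreeCycle → ∑ i, t i = 0 →
    (∀ i, c.1 i ≠ i → t i = v) → τ t * E U c * (τ t)⁻¹ = E (v +ᵥ U) c
  perm : ∀ c t, ∑ i, t i = 0 → E Set.univ c * τ t * (E Set.univ c)⁻¹ = τ fun i => t (c.1⁻¹ i)
  gen : Subgroup.closure ({g | ∃ v, ∑ i, v i = 0 ∧ g = τ v} ∪ {g | ∃ U c, Det r U ∧ g = E U c}) = ⊤

namespace C

variable (X : SFT) (r : ℕ)

/-- the generators -/
abbrev Gn : Type := (Lv × Bool) ⊕ ({U : Set X.Pt // Det r U} × alternatingGroup Lv)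

/-- the images of the generators -/
def π0 : FreeGroup (Gn X r) →* Perm (X.Pt × Lv) :=
  FreeGroup.lift (Sum.elim (fun p => lev X.Pt (el p.1 0 p.2)) fun q => P q.1.1 q.2.1)

/-- a word for the level translation `t` -/
def τF (t : Lv → V) : FreeGroup (Gn X r) :=
  ((Finset.univ : Finset (Lv × Bool)).toList.map fun p => FreeGroup.of (Sum.inl p) ^ co p.2 (t p.1)).prod

theorem prod_zpow_add {ι H : Type*} [Group H] (y : ι → H) (hy : ∀ p q, Commute (y p) (y q)) (a b : ι → ℤ)
    (l : List ι) : (l.map fun p => y p ^ (a p + b p)).prod =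
      (l.map fun p => y p ^ a p).prod * (l.map fun p => y p ^ b p).prod := by
  induction l with
  | nil => simp
  | cons p l ih =>
    have : Commute (y p ^ b p) (l.map fun p => y p ^ a p).prod := Commute.list_prod_right _ _ fun x hx => by
      obtain ⟨q, -, rfl⟩ := List.mem_map.1 hx
      exact (hy p q).zpow_zpow _ _
    simp only [List.map_cons, List.prod_cons, ih]
    rw [zpow_add, mul_assoc, mul_assoc, ← mul_assoc (y p ^ b p), this.eq, mul_assoc]

theorem π0_τF {t : Lv → V} (ht : ∑ i, t i = 0) : π0 X r (τF X r t) = lev X.Pt t := by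
  let L : Multiplicative (Lv → V) →* Perm (X.Pt × Lv) :=
    ⟨⟨fun v => lev X.Pt v.toAdd, lev_zero⟩, fun v w => lev_add _ _⟩
  have h1 : ∀ p : Lv × Bool, π0 X r (FreeGroup.of (Sum.inl p) ^ co p.2 (t p.1)) =
      L (Multiplicative.ofAdd (co p.2 (t p.1) • el p.1 0 p.2)) := fun p => by
    rw [ofAdd_zsmul, map_zpow, map_zpow, π0, FreeGroup.lift_apply_of]; rfl
  have h2 := sum_co_el t 0
  rw [ht, Pi.single_zero, sub_zero] at h2
  rw [τF, map_list_prod, List.map_map]
  have h3 : L (Multiplicative.ofAdd (∑ p : Lv × Bool, co p.2 (t p.1) • el p.1 0 p.2)) =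
      ((Finset.univ : Finset (Lv × Bool)).toList.map fun p =>
        L (Multiplicative.ofAdd (co p.2 (t p.1) • el p.1 0 p.2))).prod := by
    rw [ofAdd_sum, ← Finset.prod_map_toList, map_list_prod, List.map_map]; rfl
  rw [h2] at h3
  exact (congrArg List.prod (List.map_congr_left fun p _ => h1 p)).trans h3.symm

/-- the group with the finite set `s` of relators -/
abbrev Gam (s : Finset (π0 X r).ker) : Type :=
  FreeGroup (Gn X r) ⧸ Subgroup.normalClosure (Subtype.val '' (s : Set (π0 X r).ker))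

/-- the projection -/
abbrev mk (s : Finset (π0 X r).ker) : FreeGroup (Gn X r) →* Gam X r s := QuotientGroup.mk' _

variable {X r}

theorem ev_eq {a b : FreeGroup (Gn X r)} (h : π0 X r a = π0 X r b) : ∀ᶠ s in atTop, mk X r s a = mk X r s b := by
  classical
  have hm : a⁻¹ * b ∈ (π0 X r).ker := by rw [MonoidHom.mem_ker, map_mul, map_inv, h, inv_mul_cancel]
  filter_upwards [eventually_ge_atTop ({⟨_, hm⟩} : Finset (π0 X r).ker)] with s hs
  exact QuotientGroup.eq.2 (Subgroup.subset_normalClosure ⟨_, hs (Finset.mem_singleton_self _), rfl⟩)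

/-- a translation equal to `v` on the support of `c` -/
def tc (c : Perm Lv) (v : V) : Lv → V :=
  by classical exact if h : ∃ t : Lv → V, ∑ i, t i = 0 ∧ ∀ i, c i ≠ i → t i = v then h.choose else 0

theorem tc_spec {c : Perm Lv} (hc : c.IsThreeCycle) (v : V) : ∑ i, tc c v i = 0 ∧ ∀ i, c i ≠ i → tc c v i = v := by
  have h : ∃ t : Lv → V, ∑ i, t i = 0 ∧ ∀ i, c i ≠ i → t i = v := by
    obtain ⟨t, h1, h2⟩ := exists_t c.support (by rw [hc.card_support]; norm_num) fun _ => v
    exact ⟨t, h1, fun i hi => h2 i (by simpa using hi)⟩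
  rw [tc, dif_pos h]; exact h.choose_spec

variable (X r)

theorem exists_dat : ∃ (Γ : Type) (_ : Group Γ), Group.IsFinitelyPresented Γ ∧ Nonempty (Dat X r Γ) := by
  classical
  let B := {U : Set X.Pt // Det r U}
  let g : B → alternatingGroup Lv → FreeGroup (Gn X r) := fun U c => FreeGroup.of (Sum.inr (U, c))
  let y : Lv × Bool → FreeGroup (Gn X r) := fun p => FreeGroup.of (Sum.inl p)
  have πg : ∀ U c, π0 X r (g U c) = P U.1 c.1 := fun U c => by simp [g, π0]
  have πy : ∀ p, π0 X r (y p) = lev X.Pt (el p.1 0 p.2) := fun p => by simp [y, π0]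
  let un : B := ⟨Set.univ, det_univ r⟩
  have r1 : ∀ᶠ s in atTop, ∀ p q, mk X r s (y p * y q) = mk X r s (y q * y p) := by
    simp only [eventually_all]
    exact fun p q => ev_eq (by simp only [map_mul, πy, ← lev_add, add_comm])
  have r2 : ∀ᶠ s in atTop, ∀ U c d, mk X r s (g U (c * d)) = mk X r s (g U c * g U d) := by
    simp only [eventually_all]
    exact fun U c d => ev_eq (by simp only [map_mul, πg, Subgroup.coe_mul, P_mul])
  have r3 : ∀ᶠ s in atTop, ∀ (U W : B) c, Disjoint U.1 W.1 →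
      mk X r s (g ⟨_, U.2.union W.2⟩ c) = mk X r s (g U c * g W c) := by
    simp only [eventually_all]
    exact fun U W c h => ev_eq (by simp only [map_mul, πg, P_add h])
  have r4 : ∀ᶠ s in atTop, ∀ (U W : B) c d, Disjoint U.1 W.1 →
      mk X r s (g U c * g W d) = mk X r s (g W d * g U c) := by
    simp only [eventually_all]
    exact fun U W c d h => ev_eq (by simp only [map_mul, πg, P_orth h])
  have r5 : ∀ᶠ s in atTop, ∀ (U : B) (c : alternatingGroup Lv) i j b, c.1 i = i → c.1 j = j →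
      mk X r s (τF X r (el i j b) * g U c) = mk X r s (g U c * τF X r (el i j b)) := by
    simp only [eventually_all]
    refine fun U c i j b hi hj => ev_eq ?_
    have := lev_P (U := U.1) (c := c.1) (t := el i j b) (v := 0) fun k hk => by
      have h1 : k ≠ i := fun e => hk (e ▸ hi)
      have h2 : k ≠ j := fun e => hk (e ▸ hj)
      simp [el, h1, h2]
    rw [zero_vadd, mul_inv_eq_iff_eq_mul] at this
    simp only [map_mul, πg, π0_τF X r (sum_el i j b), this]
  have r6 : ∀ᶠ s in atTop, ∀ (U W : B) (c : alternatingGroup Lv) (v : box r), W.1 = v.1 +ᵥ U.1 →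
      c.1.IsThreeCycle → mk X r s (τF X r (tc c.1 v) * g U c * (τF X r (tc c.1 v))⁻¹) = mk X r s (g W c) := by
    simp only [eventually_all]
    exact fun U W c v h hc => ev_eq (by
      simp only [map_mul, map_inv, πg, π0_τF X r (tc_spec hc v).1, lev_P (tc_spec hc v).2, h])
  have r7 : ∀ᶠ s in atTop, ∀ (c : alternatingGroup Lv) i j b,
      mk X r s (g un c * τF X r (el i j b) * (g un c)⁻¹) = mk X r s (τF X r fun k => el i j b (c.1⁻¹ k)) := by
    simp only [eventually_all]
    refine fun c i j b => ev_eq ?_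
    simp only [map_mul, map_inv, πg, π0_τF X r (sum_el i j b)]
    rw [π0_τF X r (by rw [Equiv.sum_comp c.1⁻¹ (el i j b), sum_el]), P_lev]
  have r8 : ∀ᶠ s in atTop, ∀ p, mk X r s (y p) = mk X r s (τF X r (el p.1 0 p.2)) := by
    simp only [eventually_all]
    exact fun p => ev_eq (by rw [πy, π0_τF X r (sum_el _ _ _)])
  obtain ⟨s, r1, r2, r3, r4, r5, r6, r7, r8⟩ :=
    (r1.and (r2.and (r3.and (r4.and (r5.and (r6.and (r7.and r8))))))).exists
  simp only [map_mul, map_inv] at r1 r2 r3 r4 r5 r6 r7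
  let τ : (Lv → V) → Gam X r s := fun t => mk X r s (τF X r t)
  let E : Set X.Pt → alternatingGroup Lv →* Gam X r s := fun U =>
    if h : Det r U then MonoidHom.mk' (fun c => mk X r s (g ⟨U, h⟩ c)) (r2 _) else 1
  have hE : ∀ U (h : Det r U) c, E U c = mk X r s (g ⟨U, h⟩ c) := fun U h c => by simp only [E, dif_pos h]; rfl
  have τa : ∀ v w, τ (v + w) = τ v * τ w := fun v w => by
    have : ∀ p : Lv × Bool, co p.2 ((v + w) p.1) = co p.2 (v p.1) + co p.2 (w p.1) := fun p => by
      unfold co; split_ifs <;> rfl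
    simp only [τ, τF, map_list_prod, List.map_map, Function.comp_def, map_zpow, this]
    exact prod_zpow_add _ r1 _ _ _
  have τ0 : τ 0 = 1 := by
    have := τa 0 0
    rw [add_zero] at this
    exact left_eq_mul.1 this
  have t0 : ∀ U c t, Det r U → ∑ i, t i = 0 → (∀ i, c.1 i ≠ i → t i = 0) → Commute (τ t) (E U c) := by
    intro U c t hU ht h
    refine T_induction (p := fun t => Commute (τ t) (E U c)) (F := {i | c.1 i = i}) (by rw [τ0]; simp)
      (fun s t _ _ h1 h2 => by rw [τa]; exact h1.mul_left h2) (fun i hi j hj b => ?_) ht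
      fun i hi => by_contra fun e => hi (h i e)
    rw [hE U hU]; exact r5 _ c i j b hi hj
  refine ⟨Gam X r s, inferInstance, Group.IsFinitelyPresented.quotient _ ⟨_, s.finite_toSet.image _, rfl⟩, ⟨
    { π := QuotientGroup.lift _ (π0 X r) (Subgroup.normalClosure_le_normal (by rintro _ ⟨w, -, rfl⟩; exact w.2))
      τ := τ
      E := E
      τ_add := τa
      π_τ := fun v hv => π0_τF X r hv
      π_E := fun U c h => by rw [hE U h]; exact πg _ _
      add := fun U W c hU hW h => by rw [hE U hU, hE W hW, hE _ (hU.union hW)]; exact r3 ⟨U, hU⟩ ⟨W, hW⟩ c h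
      orth := fun U W c d hU hW h => by rw [hE U hU, hE W hW]; exact r4 ⟨U, hU⟩ ⟨W, hW⟩ c d h
      trans0 := t0
      trans := fun U c t v hv hU hW hc ht h => ?_
      perm := fun c t ht => ?_
      gen := ?_ }⟩⟩
  · have h1 := t0 U c (t - tc c.1 v) hU (by simp [Finset.sum_sub_distrib, ht, (tc_spec hc v).1])
      fun i hi => by simp [h i hi, (tc_spec hc v).2 i hi]
    rw [show t = tc c.1 v + (t - tc c.1 v) by abel, τa, hE _ hW, ← r6 ⟨U, hU⟩ ⟨_, hW⟩ c ⟨v, hv⟩ rfl hc, ← hE U hU,
      mul_assoc (τ _), h1.eq]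
    simp only [τ]; group
  · refine T_induction (p := fun t => E Set.univ c * τ t * (E Set.univ c)⁻¹ = τ fun i => t (c.1⁻¹ i))
      (F := Set.univ) (by rw [τ0, mul_one, mul_inv_cancel]; exact τ0.symm) (fun s t _ _ h1 h2 => ?_) (fun i _ j _ b => ?_) ht
      fun _ _ => trivial
    · rw [τa, show (fun i => (s + t) (c.1⁻¹ i)) = (fun i => s (c.1⁻¹ i)) + fun i => t (c.1⁻¹ i) from rfl, τa,
        ← h1, ← h2]
      group
    · rw [hE _ (det_univ r)]; exact r7 c i j b
  · rw [eq_top_iff]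
    rintro x -
    obtain ⟨w, rfl⟩ := QuotientGroup.mk'_surjective _ x
    induction w using FreeGroup.induction_on with
    | C1 => rw [map_one]; exact one_mem _
    | of a =>
      rcases a with p | ⟨U, c⟩
      · exact Subgroup.subset_closure (Or.inl ⟨_, sum_el _ _ _, r8 p⟩)
      · exact Subgroup.subset_closure (Or.inr ⟨U.1, c, U.2, (hE U.1 U.2 c).symm⟩)
    | inv_of a h => rw [map_inv]; exact inv_mem h
    | mul a b ha hb => rw [map_mul]; exact mul_mem ha hb

end C

end Crest.Agent.R189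

end
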