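import Crest.Agent.R189.Full.Defs

/-!
# Row 189, block B3 (owner helper95): a group with coherent lifts `φ U c` of the 3-cycles over clopen sets
-/

set_option autoImplicit false

noncomputable section

namespace Crest.Agent.R189

open Equiv Pointwise

/-- `Γ` maps to the full group of `X × Fin n`; level translations and 3-cycles over clopen sets have coherent lifts. -/
structure Rig (G X : Type*) [AddCommGroup G] [AddAction G X] [TopologicalSpace X] (n : ℕ) (Γ : Type*)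
    [Group Γ] where
  π : Γ →* Perm (X × Fin n)
  τ : (Fin n → G) → Γ
  φ : Set X → Perm (Fin n) → Γ
  τ_add : ∀ v w, ∑ i, v i = 0 → ∑ i, w i = 0 → τ (v + w) = τ v * τ w
  π_τ : ∀ v, ∑ i, v i = 0 → π (τ v) = lev X v
  π_in : ∀ U c, IsClopen U → c.IsThreeCycle → ∀ x ∈ U, ∀ i, π (φ U c) (x, i) = (x, c i)
  π_out : ∀ U c, IsClopen U → c.IsThreeCycle → ∀ x ∉ U, ∀ i, π (φ U c) (x, i) = (x, i)
  add : ∀ U V c, IsClopen U → IsClopen V → Disjoint U V → c.IsThreeCycle → φ (U ∪ V) c = φ U c * φ V c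
  orth : ∀ U V c d, IsClopen U → IsClopen V → Disjoint U V → c.IsThreeCycle → d.IsThreeCycle →
    Commute (φ U c) (φ V d)
  conj : ∀ U V c d, IsClopen U → IsClopen V → U ⊆ V → c.IsThreeCycle → d.IsThreeCycle →
    φ V d * φ U c * (φ V d)⁻¹ = φ U (d * c * d⁻¹)
  inv : ∀ U c, IsClopen U → c.IsThreeCycle → φ U c⁻¹ = (φ U c)⁻¹
  trans : ∀ U c t v, IsClopen U → c.IsThreeCycle → ∑ i, t i = 0 → (∀ i, c i ≠ i → t i = v) →
    τ t * φ U c * (τ t)⁻¹ = φ (v +ᵥ U) c
  perm : ∀ c t, c.IsThreeCycle → ∑ i, t i = 0 →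
    φ Set.univ c * τ t * (φ Set.univ c)⁻¹ = τ fun i => t (c⁻¹ i)
  gen : Subgroup.closure ({g | ∃ v, ∑ i, v i = 0 ∧ g = τ v} ∪
    {g | ∃ U c, IsClopen U ∧ c.IsThreeCycle ∧ g = φ U c}) = ⊤

namespace C

variable {L : Type*} [DecidableEq L]

/-- the 3-cycle `a ↦ b ↦ c ↦ a` -/
def cy (a b c : L) : Perm L := swap a b * swap b c

theorem cy_three [Fintype L] {a b c : L} (ab : a ≠ b) (ac : a ≠ c) (bc : b ≠ c) : (cy a b c).IsThreeCycle := by
  rw [cy, swap_comm a b]; exact Perm.isThreeCycle_swap_mul_swap_same ab.symm bc ac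

theorem cy_fst {a b c : L} (ab : a ≠ b) (ac : a ≠ c) : cy a b c a = b := by
  simp [cy, swap_apply_of_ne_of_ne ab ac]

theorem cy_snd {a b c : L} (ac : a ≠ c) (bc : b ≠ c) : cy a b c b = c := by
  simp [cy, swap_apply_of_ne_of_ne ac.symm bc.symm]

theorem cy_of_ne {a b c i : L} (ha : i ≠ a) (hb : i ≠ b) (hc : i ≠ c) : cy a b c i = i := by
  simp [cy, swap_apply_of_ne_of_ne hb hc, swap_apply_of_ne_of_ne ha hb]

theorem cy_supp {a b c i : L} (h : cy a b c i ≠ i) : i = a ∨ i = b ∨ i = c := by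
  by_contra hn
  push Not at hn
  exact h (cy_of_ne hn.1 hn.2.1 hn.2.2)

theorem conj_cy (d : Perm L) (a b c : L) : d * cy a b c * d⁻¹ = cy (d a) (d b) (d c) := by
  simp only [cy, swap_apply_apply]; group

theorem exists_cy [Fintype L] {c : Perm L} (h : c.IsThreeCycle) :
    ∃ a b e, a ≠ b ∧ a ≠ e ∧ b ≠ e ∧ c = cy a b e := by
  obtain ⟨a, ha⟩ : c.support.Nonempty := by rw [← Finset.card_pos, h.card_support]; norm_num
  have h1 := h.nodup_iff_mem_support.2 ha
  simp only [List.nodup_cons, List.mem_cons, List.not_mem_nil, or_false, not_or] at h1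
  exact ⟨a, c a, c (c a), h1.1.1, h1.1.2, h1.2.1, h.eq_swap_mul_swap_iff_mem_support.2 ha⟩

theorem exists_fresh {n : ℕ} (F : Finset (Fin n)) (h : F.card < n) : ∃ a, a ∉ F := by
  by_contra hn
  push Not at hn
  rw [Finset.eq_univ_iff_forall.2 hn, Finset.card_fin] at h
  exact lt_irrefl _ h

theorem exists_fresh2 {n : ℕ} (F : Finset (Fin n)) (h : F.card + 1 < n) : ∃ a b, a ∉ F ∧ b ∉ F ∧ a ≠ b := by
  obtain ⟨a, ha⟩ := exists_fresh F (by omega)
  obtain ⟨b, hb⟩ := exists_fresh (insert a F) (by rw [Finset.card_insert_of_notMem ha]; omega)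
  rw [Finset.mem_insert, not_or] at hb
  exact ⟨a, b, ha, hb.2, Ne.symm hb.1⟩

/-- a level translation of sum zero with prescribed values on a proper set of levels -/
theorem exists_t {G : Type*} [AddCommGroup G] {n : ℕ} (F : Finset (Fin n)) (h : F.card < n) (s : Fin n → G) :
    ∃ t : Fin n → G, ∑ i, t i = 0 ∧ ∀ i ∈ F, t i = s i := by
  obtain ⟨a, ha⟩ := exists_fresh F h
  refine ⟨s - Pi.single a (∑ i, s i), by simp [Finset.sum_sub_distrib], fun i hi => ?_⟩
  have : i ≠ a := fun e => ha (e ▸ hi)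
  simp [this]

theorem clopen_induction' {X : Type*} [TopologicalSpace X] [CompactSpace X] [T2Space X] [TotallyDisconnectedSpace X]
    {p : Set X → Prop} (h0 : p ∅)
    (hu : ∀ U V, IsClopen U → IsClopen V → Disjoint U V → p U → p V → p (U ∪ V))
    (hl : ∀ x, ∀ᶠ U in (nhds x).smallSets, IsClopen U → p U) {U : Set X} (hU : IsClopen U) : p U := by
  have := isCompact_univ.induction_on
    (p := fun S : Set X => ∃ W, IsClopen W ∧ S ⊆ W ∧ ∀ U ⊆ W, IsClopen U → p U)
    ⟨∅, isClopen_empty, le_rfl, fun U h _ => by rwa [Set.subset_empty_iff.1 h]⟩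
    (fun _ _ h ⟨W, h1, h2, h3⟩ => ⟨W, h1, h.trans h2, h3⟩)
    (fun _ _ ⟨W, h1, h2, h3⟩ ⟨W', h1', h2', h3'⟩ => ⟨W ∪ W', h1.union h1', Set.union_subset_union h2 h2',
      fun U h hU => by
        rw [← Set.inter_union_sdiff U W]
        exact hu _ _ (hU.inter h1) (hU.diff h1) (Set.disjoint_sdiff_right.mono_left Set.inter_subset_right)
          (h3 _ Set.inter_subset_right (hU.inter h1))
          (h3' _ (fun x hx => (h hx.1).resolve_left hx.2) (hU.diff h1))⟩)
    (fun x _ => by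
      obtain ⟨N, hN, h⟩ := Filter.eventually_smallSets.1 (hl x)
      obtain ⟨W, h1, h2, h3⟩ := isTopologicalBasis_isClopen.mem_nhds_iff.1 hN
      exact ⟨W, nhdsWithin_le_nhds (h1.2.mem_nhds h2), W, h1, le_rfl, fun U hU => h U (hU.trans h3)⟩)
  obtain ⟨W, -, h2, h3⟩ := this
  exact h3 U ((Set.subset_univ U).trans h2) hU

end C

end Crest.Agent.R189

end
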